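import Vale.Agent.Lib.P254.Affine

/-!
# Affine transport between two affinely independent families of `d + 1` points of `ℝ^d`

Two affinely independent families `X, Y : I → ℝ^d` with `|I| = d + 1` are related by an
invertible affine map `x ↦ M x + c` (`affMap M c`), and `affMap` commutes with affine
combinations.
-/

namespace Vale.Agent.Lib.P254

open Module

/-- Two affinely independent families of `d + 1` points of `ℝ^d` are mapped to one another by an
invertible affine map `affMap M c`. -/
theorem exists_affMap_of_affineIndependent {d : ℕ} {I : Type} [Fintype I]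
    (hcard : Fintype.card I = d + 1) (X Y : I → Fin d → ℝ)
    (hX : AffineIndependent ℝ X) (hY : AffineIndependent ℝ Y) :
    ∃ (M : Matrix (Fin d) (Fin d) ℝ) (c : Fin d → ℝ),
      M.det ≠ 0 ∧ ∀ l, affMap M c (X l) = Y l := by
  classical
  have hfin : Fintype.card I = Module.finrank ℝ (Fin d → ℝ) + 1 := by
    rw [hcard, Module.finrank_fin_fun]
  have hXtop : affineSpan ℝ (Set.range X) = ⊤ :=
    (hX.affineSpan_eq_top_iff_card_eq_finrank_add_one).mpr hfin
  have hYtop : affineSpan ℝ (Set.range Y) = ⊤ :=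
    (hY.affineSpan_eq_top_iff_card_eq_finrank_add_one).mpr hfin
  let bX : AffineBasis I ℝ (Fin d → ℝ) := ⟨X, hX, hXtop⟩
  let bY : AffineBasis I ℝ (Fin d → ℝ) := ⟨Y, hY, hYtop⟩
  have hne : Nonempty I := by
    rw [← Fintype.card_pos_iff, hcard]; omega
  obtain ⟨i⟩ := hne
  let e : (Fin d → ℝ) ≃ₗ[ℝ] (Fin d → ℝ) :=
    (bX.basisOf i).equiv (bY.basisOf i) (Equiv.refl _)
  have he : ∀ l : I, l ≠ i → e (X l - X i) = Y l - Y i := by
    intro l hl
    have h1 := Basis.equiv_apply (bX.basisOf i) ⟨l, hl⟩ (bY.basisOf i) (Equiv.refl _)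
    rw [AffineBasis.basisOf_apply, Equiv.refl_apply, AffineBasis.basisOf_apply] at h1
    exact h1
  refine ⟨LinearMap.toMatrix' (e : (Fin d → ℝ) →ₗ[ℝ] (Fin d → ℝ)), Y i - e (X i), ?_, ?_⟩
  · rw [LinearMap.det_toMatrix']
    exact (LinearEquiv.isUnit_det' e).ne_zero
  · intro l
    have hmul : (LinearMap.toMatrix' (e : (Fin d → ℝ) →ₗ[ℝ] (Fin d → ℝ))).mulVec (X l)
        = e (X l) := by
      rw [← Matrix.toLin'_apply, Matrix.toLin'_toMatrix']
      rfl
    unfold affMap
    rw [hmul]
    by_cases hl : l = i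
    · subst hl
      abel
    · have h2 : e (X l) = e (X l - X i) + e (X i) := by
        rw [← map_add]
        congr 1
        abel
      rw [h2, he l hl]
      abel

/-- `affMap` commutes with affine combinations (weights of sum one). -/
theorem affMap_weightedSum {d : ℕ} {I : Type} [Fintype I] (M : Matrix (Fin d) (Fin d) ℝ)
    (c : Fin d → ℝ) (w : I → ℝ) (hw : ∑ l, w l = 1) (X : I → Fin d → ℝ) :
    affMap M c (∑ l, w l • X l) = ∑ l, w l • affMap M c (X l) := by
  unfold affMap
  have h1 : M.mulVec (∑ l, w l • X l) = ∑ l, w l • M.mulVec (X l) := by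
    rw [Matrix.mulVec_sum]
    refine Finset.sum_congr rfl fun l _ => ?_
    rw [Matrix.mulVec_smul]
  rw [h1]
  simp only [smul_add, Finset.sum_add_distrib]
  rw [← Finset.sum_smul, hw, one_smul]

end Vale.Agent.Lib.P254
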