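import Vale.Agent.Lib.P254.BipClosureFew

namespace Vale.Agent.Lib.P254
open Set

/-- An invertible affine image of a simplex is a simplex. -/
theorem isSimplex_affMap {n : ℕ} {M : Matrix (Fin n) (Fin n) ℝ} (hM : M.det ≠ 0)
    (c : Fin n → ℝ) {K : Set (Fin n → ℝ)} (hK : IsSimplex K) : IsSimplex (affMap M c '' K) := by
  obtain ⟨p, hp, rfl⟩ := hK
  refine ⟨affMap M c ∘ p, ?_, ?_⟩
  · have hinj : Function.Injective (affMapA M c) := by
      rw [affMapA_coe]
      exact affMap_injective hM c
    have h := hp.map' (affMapA M c) hinj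
    rwa [affMapA_coe] at h
  · rw [affMap_image_convexHull, range_comp]

/-- `IterCone n K`: the set `K ⊆ ℝ^(n+1)` is obtained from the convex hull of `m + 3` points of
`ℝ^(m+1)` with nonempty interior (a polytope with at most `d + 2` vertices in its dimension `d`)
by finitely many steps, each of which is either an invertible affine map or the passage to a
double cone `conv(a, a', {0} × K)` whose apexes `a`, `a'` lie strictly on opposite sides of the
hyperplane `x₀ = 0` and whose segment `[a, a']` meets that hyperplane in a point `(0, q)` with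
`q ∈ K`. -/
inductive IterCone : (n : ℕ) → Set (Fin (n + 1) → ℝ) → Prop
  | base {n : ℕ} (p : Fin (n + 3) → (Fin (n + 1) → ℝ))
      (hint : (interior (convexHull ℝ (range p))).Nonempty) :
      IterCone n (convexHull ℝ (range p))
  | aff {n : ℕ} {K : Set (Fin (n + 1) → ℝ)} (hK : IterCone n K)
      (M : Matrix (Fin (n + 1)) (Fin (n + 1)) ℝ) (c : Fin (n + 1) → ℝ) (hM : M.det ≠ 0) :
      IterCone n (affMap M c '' K)
  | cone {n : ℕ} {K : Set (Fin (n + 1) → ℝ)} (hK : IterCone n K)
      (q : Fin (n + 1) → ℝ) (a a' : Fin (n + 2) → ℝ) (s : ℝ)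
      (hq : q ∈ K) (ha : a 0 ≠ 0) (hs0 : 0 < s) (hs1 : s < 1)
      (hcross : (1 - s) • a + s • a' = Fin.cons 0 q) :
      IterCone (n + 1)
        (convexHull ℝ (insert a (insert a' ((fun k => (Fin.cons 0 k : Fin (n + 2) → ℝ)) '' K))))

/-- The strong isotropic constant conjecture, with its equality case, for every iterated double
cone over a polytope with at most `d + 2` vertices. -/
theorem iterCone_main {n : ℕ} {K : Set (Fin (n + 1) → ℝ)} (h : IterCone n K) :
    IsConvexBody K ∧ isoConst K ≤ isoConst (solidSimplex (n + 1)) ∧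
      (isoConst K = isoConst (solidSimplex (n + 1)) ↔ IsSimplex K) := by
  induction h with
  | base p hint =>
    obtain ⟨hle, heq⟩ := few_points p hint
    exact ⟨fewHull_body p hint, hle, heq⟩
  | aff hK M c hM ih =>
    obtain ⟨hb, hle, heq⟩ := ih
    refine ⟨affine_body hM c hb, ?_, ?_, fun hS => isoConst_of_isSimplex hS⟩
    · rw [affine_isoConst hM c hb]; exact hle
    · intro hT
      rw [affine_isoConst hM c hb] at hT
      exact isSimplex_affMap hM c (heq.mp hT)
  | cone hK q a a' s hq ha hs0 hs1 hcross ih =>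
    obtain ⟨hb, hle, heq⟩ := ih
    exact ⟨doubleCone_body hb hq ha hs0 hs1 hcross,
      doubleCone_inherit hb hq ha hs0 hs1 hcross hle,
      fun hT => doubleCone_eq_case hb hq ha hs0 hs1 hcross hle heq.mp hT,
      fun hS => isoConst_of_isSimplex hS⟩

end Vale.Agent.Lib.P254
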